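import Mathlib

/-!
# Allen-Cahn: sums of plane waves with independent directions are one-dimensional

Let u be a C^2 solution of Laplacian u = u^3 - u on a finite-dimensional real inner product space.
If u x is the sum over k of f k (inner (v k) x) with linearly independent vectors v k (and
arbitrary functions f k), then u is a function of one inner (v k) x alone.

The proof uses only that the Laplacian commutes with translations: if the mixed second difference
of u in two directions w, s vanishes identically, then the product of u (x + w) - u x,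
u (x + s) - u x and u (x + w) + u (x + s) is zero.
-/

namespace Vale.Agent.H36.AC

open Laplacian InnerProductSpace

variable {E : Type*} [NormedAddCommGroup E] [InnerProductSpace ℝ E] [FiniteDimensional ℝ E]

/-- The Laplacian commutes with translations. -/
theorem laplacian_translate (u : E → ℝ) (a x : E) :
    Δ (fun z => u (z + a)) x = Δ u (x + a) := by
  simp only [laplacian_eq_iteratedFDeriv_stdOrthonormalBasis]
  simp only [iteratedFDeriv_comp_add_right]

/-- The algebraic core: vanishing mixed differences force a product to vanish. -/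
theorem mixed_core (u : E → ℝ) (hu : ContDiff ℝ 2 u) (heq : ∀ x, Δ u x = u x ^ 3 - u x)
    (w s : E) (H : ∀ x, u (x + w + s) - u (x + w) - u (x + s) + u x = 0) (x : E) :
    (u (x + w) - u x) * (u (x + s) - u x) * (u (x + w) + u (x + s)) = 0 := by
  have hv : ∀ z, Δ (fun z => u (z + w) - u z) z =
      (u (z + w) ^ 3 - u (z + w)) - (u z ^ 3 - u z) := by
    intro z
    have h1 : ContDiffAt ℝ 2 (fun z => u (z + w)) z :=
      (hu.comp (contDiff_id.add contDiff_const)).contDiffAt
    have h2 : ContDiffAt ℝ 2 u z := hu.contDiffAt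
    have h3 := h1.laplacian_sub h2
    have e : (fun z => u (z + w) - u z) = (fun z => u (z + w)) - u := rfl
    rw [e, h3, laplacian_translate, heq, heq]
  have hinv : (fun z => u (z + s + w) - u (z + s)) = (fun z => u (z + w) - u z) := by
    funext z
    have h := H z
    have e : z + s + w = z + w + s := by abel
    rw [e]
    linarith
  have h3 : Δ (fun z => u (z + w) - u z) (x + s) = Δ (fun z => u (z + w) - u z) x := by
    rw [← laplacian_translate (fun z => u (z + w) - u z) s x]
    have e : (fun z => (fun z => u (z + w) - u z) (z + s)) =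
        (fun z => u (z + s + w) - u (z + s)) := rfl
    rw [e, hinv]
  rw [hv, hv] at h3
  have hH := H x
  have e : x + s + w = x + w + s := by abel
  rw [e] at h3
  have hP : u (x + w + s) = u (x + w) + u (x + s) - u x := by linarith
  rw [hP] at h3
  have h4 : 3 * ((u (x + w) - u x) * (u (x + s) - u x) * (u (x + w) + u (x + s))) = 0 := by
    linear_combination h3
  linarith

/-- Dichotomy: if all mixed differences between a line `ℝ r` and a complementary subspace `S`
vanish, then the solution is invariant along the line or along the subspace. -/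
theorem dichotomy (u : E → ℝ) (hu : ContDiff ℝ 2 u) (heq : ∀ x, Δ u x = u x ^ 3 - u x)
    (r : E) (S : Submodule ℝ E) (hdec : ∀ y : E, ∃ t : ℝ, ∃ s ∈ S, y = t • r + s)
    (H : ∀ x, ∀ t : ℝ, ∀ s ∈ S, u (x + t • r + s) - u (x + t • r) - u (x + s) + u x = 0) :
    (∀ x, ∀ t : ℝ, u (x + t • r) = u x) ∨ (∀ x, ∀ s ∈ S, u (x + s) = u x) := by
  by_contra hcon
  push Not at hcon
  obtain ⟨⟨x0, t0, h0⟩, ⟨x1, s1, hs1, h1⟩⟩ := hcon
  obtain ⟨t, q, hq, hy⟩ := hdec (x1 - x0)
  have hx1 : x1 = x0 + q + t • r := by
    have : x1 = x0 + (x1 - x0) := by abel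
    rw [this, hy]
    abel
  have hα : u (x0 + q + t0 • r) ≠ u (x0 + q) := by
    have h := H x0 t0 q hq
    have e : x0 + q + t0 • r = x0 + t0 • r + q := by abel
    rw [e]
    intro hc
    apply h0
    linarith
  have hβ : u (x0 + q + s1) ≠ u (x0 + q) := by
    have h := H (x0 + q) t s1 hs1
    rw [← hx1] at h
    intro hc
    apply h1
    linarith
  have hval : ∀ τ : ℝ, u (x0 + q + τ • s1) = u (x0 + q) ∨
      u (x0 + q + τ • s1) = - u (x0 + q + t0 • r) := by
    intro τ
    have hτ : τ • s1 ∈ S := S.smul_mem τ hs1
    have hc := mixed_core u hu heq (t0 • r) (τ • s1) (fun z => H z t0 (τ • s1) hτ) (x0 + q)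
    rcases mul_eq_zero.mp hc with h | h
    · rcases mul_eq_zero.mp h with h | h
      · exact absurd (sub_eq_zero.mp h) hα
      · left
        exact sub_eq_zero.mp h
    · right
      linarith
  have hcont : Continuous (fun τ : ℝ => u (x0 + q + τ • s1)) :=
    hu.continuous.comp (by fun_prop)
  have hone : u (x0 + q + (1 : ℝ) • s1) = - u (x0 + q + t0 • r) := by
    rcases hval 1 with h | h
    · exfalso
      apply hβ
      simpa using h
    · exact h
  have hc_ne : - u (x0 + q + t0 • r) ≠ u (x0 + q) := by
    intro h
    apply hβ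
    rw [one_smul] at hone
    rw [hone, h]
  have hmid : ∃ τ : ℝ, u (x0 + q + τ • s1) = (u (x0 + q) + - u (x0 + q + t0 • r)) / 2 := by
    have hI := intermediate_value_uIcc (a := (0 : ℝ)) (b := 1)
      (f := fun τ : ℝ => u (x0 + q + τ • s1)) hcont.continuousOn
    have hmem : (u (x0 + q) + - u (x0 + q + t0 • r)) / 2 ∈
        Set.uIcc ((fun τ : ℝ => u (x0 + q + τ • s1)) 0) ((fun τ : ℝ => u (x0 + q + τ • s1)) 1) := by
      simp only [zero_smul, add_zero]
      rw [hone, Set.mem_uIcc]
      rcases le_total (u (x0 + q)) (- u (x0 + q + t0 • r)) with h | h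
      · left
        constructor <;> linarith
      · right
        constructor <;> linarith
    obtain ⟨τ, -, hτ⟩ := hI hmem
    exact ⟨τ, hτ⟩
  obtain ⟨τ, hτ⟩ := hmid
  rcases hval τ with h | h
  · rw [h] at hτ
    apply hc_ne
    linarith
  · rw [h] at hτ
    apply hc_ne
    linarith

/-- A linearly independent family has a biorthogonal family. -/
theorem exists_biorthogonal {m : ℕ} (v : Fin m → E) (hv : LinearIndependent ℝ v) :
    ∃ r : Fin m → E, ∀ j k, inner ℝ (v j) (r k) = if j = k then (1 : ℝ) else 0 := by
  classical
  have hinj : Function.Injective (Fintype.linearCombination ℝ v) :=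
    hv.fintypeLinearCombination_injective
  obtain ⟨g, hg⟩ := (Fintype.linearCombination ℝ v).exists_leftInverse_of_injective
    (LinearMap.ker_eq_bot.mpr hinj)
  have hgv : ∀ j, g (v j) = Pi.single j (1 : ℝ) := by
    intro j
    have h1 : Fintype.linearCombination ℝ v (Pi.single j (1 : ℝ)) = v j := by
      rw [Fintype.linearCombination_apply]
      rw [Finset.sum_eq_single j]
      · simp
      · intro b _ hb
        simp [hb]
      · intro h
        exact absurd (Finset.mem_univ j) h
    have h2 := congrArg (fun T => T (Pi.single j (1 : ℝ))) hg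
    simp only [LinearMap.comp_apply, LinearMap.id_apply] at h2
    rw [h1] at h2
    exact h2
  refine ⟨fun k => (InnerProductSpace.toDual ℝ E).symm
    (LinearMap.toContinuousLinearMap ((LinearMap.proj k).comp g)), ?_⟩
  intro j k
  rw [real_inner_comm, InnerProductSpace.toDual_symm_apply]
  simp only [LinearMap.coe_toContinuousLinearMap', LinearMap.comp_apply, LinearMap.proj_apply]
  rw [hgv j, Pi.single_apply]
  by_cases h : j = k
  · simp [h]
  · have h' : ¬ k = j := fun hh => h hh.symm
    simp [h, h']

/-- Main theorem on a general finite-dimensional real inner product space. -/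
theorem plane_wave_sum (u : E → ℝ) (hu : ContDiff ℝ 2 u) (heq : ∀ x, Δ u x = u x ^ 3 - u x)
    (m : ℕ) (hm : 0 < m) (v : Fin m → E) (hv : LinearIndependent ℝ v) (f : Fin m → ℝ → ℝ)
    (hsep : ∀ x, u x = ∑ k, f k (inner ℝ (v k) x)) :
    ∃ (k : Fin m) (h : ℝ → ℝ), ∀ x, u x = h (inner ℝ (v k) x) := by
  classical
  obtain ⟨r, hr⟩ := exists_biorthogonal v hv
  have hdich : ∀ k : Fin m, (∀ x, ∀ t : ℝ, u (x + t • r k) = u x) ∨
      (∀ x, ∀ s ∈ (ℝ ∙ v k)ᗮ, u (x + s) = u x) := by
    intro k
    apply dichotomy u hu heq (r k) ((ℝ ∙ v k)ᗮ)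
    · intro y
      refine ⟨inner ℝ (v k) y, y - inner ℝ (v k) y • r k, ?_, by abel⟩
      rw [Submodule.mem_orthogonal_singleton_iff_inner_right, inner_sub_right, inner_smul_right,
        hr k k]
      simp
    · intro x t s hs
      rw [Submodule.mem_orthogonal_singleton_iff_inner_right] at hs
      rw [hsep, hsep, hsep, hsep, ← Finset.sum_sub_distrib, ← Finset.sum_sub_distrib,
        ← Finset.sum_add_distrib]
      apply Finset.sum_eq_zero
      intro j _
      by_cases hjk : j = k
      · subst hjk
        have e1 : inner ℝ (v j) (x + t • r j + s) = inner ℝ (v j) (x + t • r j) := by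
          rw [inner_add_right (v j) (x + t • r j) s, hs, add_zero]
        have e2 : inner ℝ (v j) (x + s) = inner ℝ (v j) x := by
          rw [inner_add_right, hs, add_zero]
        rw [e1, e2]
        ring
      · have e0 : inner ℝ (v j) (t • r k) = 0 := by
          rw [inner_smul_right, hr j k]
          simp [hjk]
        have e1 : inner ℝ (v j) (x + t • r k + s) = inner ℝ (v j) (x + s) := by
          rw [inner_add_right (v j) (x + t • r k) s, inner_add_right (v j) x (t • r k), e0,
            inner_add_right]
          ring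
        have e2 : inner ℝ (v j) (x + t • r k) = inner ℝ (v j) x := by
          rw [inner_add_right, e0, add_zero]
        rw [e1, e2]
        ring
  by_cases hex : ∃ k : Fin m, ∀ x, ∀ s ∈ (ℝ ∙ v k)ᗮ, u (x + s) = u x
  · obtain ⟨k, hk⟩ := hex
    refine ⟨k, fun τ => u (τ • r k), ?_⟩
    intro x
    have hmem : x - inner ℝ (v k) x • r k ∈ (ℝ ∙ v k)ᗮ := by
      rw [Submodule.mem_orthogonal_singleton_iff_inner_right, inner_sub_right, inner_smul_right,
        hr k k]
      simp
    have h := hk (inner ℝ (v k) x • r k) _ hmem
    have e : inner ℝ (v k) x • r k + (x - inner ℝ (v k) x • r k) = x := by abel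
    rw [e] at h
    exact h
  · push Not at hex
    have hall : ∀ k : Fin m, ∀ x, ∀ t : ℝ, u (x + t • r k) = u x := by
      intro k
      rcases hdich k with h | h
      · exact h
      · obtain ⟨x, s, hs, hne⟩ := hex k
        exact absurd (h x s hs) hne
    have hsum : ∀ (T : Finset (Fin m)) (c : Fin m → ℝ) (y : E),
        u (y + ∑ k ∈ T, c k • r k) = u y := by
      intro T c
      induction T using Finset.induction_on with
      | empty => intro y; simp
      | insert a T ha ih =>
        intro y
        rw [Finset.sum_insert ha, ← add_assoc, ih, hall a]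
    refine ⟨⟨0, hm⟩, fun _ => u 0, ?_⟩
    intro x
    have hx0 : ∀ j, inner ℝ (v j) (x - ∑ k, inner ℝ (v k) x • r k) = 0 := by
      intro j
      rw [inner_sub_right, inner_sum]
      simp only [inner_smul_right, hr]
      simp
    have h1 := hsum Finset.univ (fun k => inner ℝ (v k) x) (x - ∑ k, inner ℝ (v k) x • r k)
    have e : x - ∑ k, inner ℝ (v k) x • r k + ∑ k, inner ℝ (v k) x • r k = x := by abel
    rw [e] at h1
    rw [h1, hsep, hsep 0]
    apply Finset.sum_congr rfl
    intro j _
    rw [hx0 j, inner_zero_right]

end Vale.Agent.H36.AC
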